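import Vale.Agent.Lib.P230.CircRels
import Vale.Agent.Lib.P230.CircNum

/-! `circ_top_bound2`: first moment of circuits under the prime hash, with the factor `1 / j!`:
a circuit is a set, and each of its `j!` enumerations lies in the tuple set that is counted. -/

set_option autoImplicit false

open MeasureTheory Finset
open scoped ENNReal Matrix Classical

namespace Vale.Agent.Lib.P230.Lin

open Vale.Agent.Lib.P230

/-- Counting sets by all their enumerations. -/
lemma enum_card_mul {E : Type*} {j : ℕ} (C : Finset (Finset E)) (S : Finset (Fin j → E))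
    (hC : ∀ T ∈ C, T.card = j) (hS : ∀ T ∈ C, ∀ Y : Fin j → E, Enum Y T → Y ∈ S) :
    j.factorial * C.card ≤ S.card := by
  have h1 : ∀ T ∈ C, j.factorial ≤ (S.filter fun Y => Enum Y T).card := by
    intro T hT
    obtain ⟨Y₀, hY₀⟩ := exists_enum T (hC T hT)
    have hinj : Function.Injective (fun σ : Equiv.Perm (Fin j) => Y₀ ∘ σ) := by
      intro σ τ h
      ext i
      have := congrFun h i
      exact congrArg _ (hY₀.1 this)
    have hcard : ((univ : Finset (Equiv.Perm (Fin j))).image fun σ : Equiv.Perm (Fin j) => Y₀ ∘ σ).card =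
        j.factorial := by
      rw [Finset.card_image_of_injective _ hinj, Finset.card_univ, Fintype.card_perm,
        Fintype.card_fin]
    rw [← hcard]
    apply Finset.card_le_card
    intro Y hY
    obtain ⟨σ, _, rfl⟩ := Finset.mem_image.mp hY
    have hE : Enum (Y₀ ∘ σ) T := by
      refine ⟨hY₀.1.comp σ.injective, fun y => ?_⟩
      rw [hY₀.2 y]
      constructor
      · rintro ⟨i, rfl⟩
        exact ⟨σ.symm i, by simp⟩
      · rintro ⟨i, rfl⟩
        exact ⟨σ i, rfl⟩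
    exact Finset.mem_filter.mpr ⟨hS T hT _ hE, hE⟩
  have h2 : (C.biUnion fun T => S.filter fun Y => Enum Y T).card =
      ∑ T ∈ C, (S.filter fun Y => Enum Y T).card := by
    apply Finset.card_biUnion
    intro T _ T' _ hne
    simp only [Function.onFun]
    rw [Finset.disjoint_left]
    intro Y hY hY'
    have h3 := (Finset.mem_filter.mp hY).2
    have h4 := (Finset.mem_filter.mp hY').2
    apply hne
    ext y
    rw [h3.2 y, h4.2 y]
  have h3 : (C.biUnion fun T => S.filter fun Y => Enum Y T) ⊆ S := by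
    intro Y hY
    obtain ⟨T, _, hT⟩ := Finset.mem_biUnion.mp hY
    exact (Finset.mem_filter.mp hT).1
  calc j.factorial * C.card = ∑ _T ∈ C, j.factorial := by simp [mul_comm]
    _ ≤ ∑ T ∈ C, (S.filter fun Y => Enum Y T).card := Finset.sum_le_sum h1
    _ = _ := h2.symm
    _ ≤ S.card := Finset.card_le_card h3

/-- A relation moves along a change of enumeration. -/
lemma rel_of_enum {d j : ℕ} {T : Finset (Fin d → ℤ)} {Y Y₀ : Fin j → Fin d → ℤ} {v₀ : Fin j → ℤ}
    (hY : Enum Y T) (hY₀ : Enum Y₀ T) (hv : v₀ ≠ 0) (hrel : IsRel Y₀ v₀) :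
    ∃ v : Fin j → ℤ, v ≠ 0 ∧ IsRel Y v := by
  have hex : ∀ i, ∃ i', Y₀ i' = Y i := fun i => (hY₀.2 _).mp ((hY.2 _).mpr ⟨i, rfl⟩)
  choose σ hσ using hex
  have hinj : Function.Injective σ := by
    intro a b hab
    apply hY.1
    rw [← hσ a, ← hσ b, hab]
  have hbij : Function.Bijective σ := (Finite.injective_iff_bijective).mp hinj
  refine ⟨fun i => v₀ (σ i), ?_, ?_, ?_⟩
  · intro h0
    apply hv
    funext i
    obtain ⟨a, rfl⟩ := hbij.2 i
    exact congrFun h0 a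
  · rw [hbij.sum_comp (fun i => v₀ i)]
    exact hrel.1
  · intro l
    have e : ∀ i, v₀ (σ i) * Y i l = (fun i => v₀ i * Y₀ i l) (σ i) := by
      intro i
      simp only [hσ]
    simp_rw [e]
    rw [hbij.sum_comp (fun i => v₀ i * Y₀ i l)]
    exact hrel.2 l

/-- First moment of circuits under the prime hash, with the factorial. -/
theorem circ_top_bound2 (d k : ℕ) (hk : 6 * k ≤ d) (θ : ℝ) (hθ : 0 < θ) : ∃ W₀ : ℕ,
    ∀ (A : Finset (Fin d → ℤ)) (M : ℝ) (W Q P : ℕ) [Fact P.Prime] (κ : ℝ),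
      Good A M W Q κ θ → 0 ≤ κ → W₀ ≤ W → Q ≤ W → W ≤ Q ^ 4 → M ≤ 2 ^ d * (P : ℝ) →
      ∀ j, 2 ≤ j → j ≤ k →
        (j.factorial : ℝ) * ∑ T ∈ (A.powersetCard j).filter (fun T => IsCirc (lift 2 d) T),
          (((univ.filter fun x : Fin (d + 1) → ZMod P => ∀ y ∈ T, x ⬝ᵥ lift P d y = 0).card : ℝ) /
            (P : ℝ) ^ (d + 1)) ≤
        (2 * M / P) ^ (j - 1) *
          ((2 * M / P) / 2 ^ d + 2 ^ j * κ ^ d + 3 ^ (2 * j + 3) / 3 ^ d + 1 / 2 ^ d) := by
  set Cθ : ℝ := max 1 (1 / θ) with hCθ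
  have hCθ1 : 1 ≤ Cθ := le_max_left _ _
  have hCθ2 : 1 / θ ≤ Cθ := le_max_right _ _
  refine ⟨⌈(2 : ℝ) ^ (2 * d + k * (d + 2)) * Cθ ^ k
    + 2 ^ d * (k.factorial : ℝ) * (1 + (d : ℝ)) ^ k * Cθ + 16⌉₊, ?_⟩
  intro A M W Q P _ κ hG hκ hW0 hQW hWQ hMP j hj2 hjk
  have hWreal := Nat.ceil_le.mp hW0
  have hc1 : (0 : ℝ) ≤ (2 : ℝ) ^ (2 * d + k * (d + 2)) * Cθ ^ k := by positivity
  have hc2 : (0 : ℝ) ≤ 2 ^ d * (k.factorial : ℝ) * (1 + (d : ℝ)) ^ k * Cθ := by positivity
  have hW16 : 16 ≤ W := by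
    have : (16 : ℝ) ≤ W := by linarith
    exact_mod_cast this
  have hWa : (2 : ℝ) ^ (2 * d + k * (d + 2)) * Cθ ^ k ≤ W := by linarith
  have hWb : 2 ^ d * (k.factorial : ℝ) * (1 + (d : ℝ)) ^ k * Cθ + 1 ≤ W := by linarith
  have hQ2 : 2 ≤ Q := by
    by_contra h
    have h1 : Q ≤ 1 := by omega
    have h2 : Q ^ 4 ≤ 1 ^ 4 := Nat.pow_le_pow_left h1 4
    omega
  have hM : 0 < M := hG.M_pos
  have hPprime : P.Prime := Fact.out
  have hP0 : (0 : ℝ) < P := by exact_mod_cast hPprime.pos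
  have hk1 : 1 ≤ k := by omega
  have hbox : ∀ y ∈ A, ∀ i, |y i| ≤ (W : ℤ) := by
    intro y hy i
    have := hG.box y hy i
    have h0 := abs_nonneg (y i)
    omega
  obtain ⟨j', rfl⟩ : ∃ j', j = j' + 1 := ⟨j - 1, by omega⟩
  simp only [Nat.add_sub_cancel]
  set C := (A.powersetCard (j' + 1)).filter (fun T => IsCirc (lift 2 d) T) with hC
  have hCmem : ∀ T ∈ C, T ⊆ A ∧ T.card = j' + 1 ∧ IsCirc (lift 2 d) T := by
    intro T hT
    simp only [hC, mem_filter, mem_powersetCard] at hT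
    exact ⟨hT.1.1, hT.1.2, hT.2⟩
  set f : Finset (Fin d → ℤ) → ℝ := fun T =>
    (((univ.filter fun x : Fin (d + 1) → ZMod P => ∀ y ∈ T, x ⬝ᵥ lift P d y = 0).card : ℝ) /
      (P : ℝ) ^ (d + 1)) with hf
  let Dep : Finset (Fin d → ℤ) → Prop := fun T =>
    ∃ (Y : Fin (j' + 1) → Fin d → ℤ) (v : Fin (j' + 1) → ℤ), Enum Y T ∧ v ≠ 0 ∧ IsRel Y v
  have hann : ∀ (l : ℕ) (u : Fin l → Fin (d + 1) → ZMod P), LinearIndependent (ZMod P) u →
      ((univ.filter fun x : Fin (d + 1) → ZMod P => ∀ i, x ⬝ᵥ u i = 0).card : ℝ)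
        = (P : ℝ) ^ (d + 1 - l) := by
    intro l u hu
    rw [card_annihilator u hu]
    push_cast
    rfl
  have hYbound : ∀ (T : Finset (Fin d → ℤ)) (l : ℕ) (Y : Fin l → Fin d → ℤ), T ⊆ A →
      (∀ i, Y i ∈ T) → ∀ i m, |Y i m| ≤ ((W : ℕ) : ℤ) := by
    intro T l Y hTA hY i m
    exact hbox _ (hTA (hY i)) m
  -- independent case
  have hfA : ∀ T ∈ C.filter (fun T => ¬ Dep T), f T ≤ 1 / (P : ℝ) ^ (j' + 1) := by
    intro T hT
    simp only [mem_filter] at hT
    obtain ⟨hTA, hTc, hTcirc⟩ := hCmem T hT.1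
    obtain ⟨Y, hY⟩ := exists_enum T hTc
    have hmem : ∀ i, Y i ∈ T := fun i => (hY.2 _).mpr ⟨i, rfl⟩
    have hind : ∀ v, IsRel Y v → v = 0 := by
      intro v hv
      by_contra hne
      exact hT.2 ⟨Y, v, hY, hne, hv⟩
    have hli := indep_mod (P := P) Y W (hYbound T _ Y hTA hmem)
      (prime_large d k (j' + 1) W P hk hjk hk1 θ Cθ M hθ hCθ2 hWb (by omega) hG.dense hMP) hind
    exact top_ratio_le T Y hmem (by omega) hli (hann _)
  -- dependent case
  have hfB : ∀ T ∈ C.filter (fun T => Dep T), f T ≤ 1 / (P : ℝ) ^ j' := by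
    intro T hT
    simp only [mem_filter] at hT
    obtain ⟨hTA, hTc, hTcirc⟩ := hCmem T hT.1
    obtain ⟨Y, _, hY, _, _⟩ := hT.2
    have hmem : ∀ i, (fun i : Fin j' => Y i.castSucc) i ∈ T :=
      fun i => (hY.2 _).mpr ⟨_, rfl⟩
    have hind : ∀ v, IsRel (fun i : Fin j' => Y i.castSucc) v → v = 0 :=
      fun v hv => rel_init_eq_zero hTcirc hY v hv
    have hli := indep_mod (P := P) (fun i : Fin j' => Y i.castSucc) W
      (hYbound T _ _ hTA hmem)
      (prime_large d k j' W P hk (by omega) hk1 θ Cθ M hθ hCθ2 hWb (by omega) hG.dense hMP) hind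
    exact top_ratio_le T _ hmem (by omega) hli (hann _)
  -- sizes
  have hA2 : (A.card : ℝ) ≤ 2 * M := hG.card_hi
  have hCA : ((j' + 1).factorial : ℝ) * ((C.filter (fun T => ¬ Dep T)).card : ℝ) ≤
      (2 * M) ^ j' * (2 * M / 2 ^ d) := by
    have h1 : (j' + 1).factorial * (C.filter (fun T => ¬ Dep T)).card ≤
        ((Fintype.piFinset fun _ : Fin (j' + 1) => A).filter
          fun Y => ∑ i, lift 2 d (Y i) = 0).card := by
      apply enum_card_mul
      · intro T hT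
        exact (hCmem T (Finset.mem_filter.mp hT).1).2.1
      · intro T hT Y hY
        simp only [mem_filter] at hT
        obtain ⟨hTA, hTc, hTcirc⟩ := hCmem T hT.1
        simp only [mem_filter, Fintype.mem_piFinset]
        refine ⟨fun i => hTA ((hY.2 _).mpr ⟨i, rfl⟩), ?_⟩
        have e : T = univ.image Y := by
          ext y
          rw [hY.2 y]
          simp
        have h2 := hTcirc.2.1
        rw [e, Finset.sum_image (fun a _ b _ h => hY.1 h)] at h2
        exact h2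
    refine le_trans (by exact_mod_cast h1) (card_parity A (2 * M) (2 * M / 2 ^ d) (by positivity)
      (by positivity) hA2 ?_ j')
    intro x
    have := hG.cls 2 le_rfl hQ2 x
    simpa using this
  set Rel1 := (Fintype.piFinset fun _ : Fin (j' + 1) => A).filter fun Y =>
    Function.Injective Y ∧ ∃ a, IsRel Y a ∧ ∀ i, |a i| = 1 with hRel1
  set Rel2 := (Fintype.piFinset fun _ : Fin (j' + 1) => A).filter fun Y =>
    ∃ a, IsRel Y a ∧ Prim a ∧ ∃ i₀, 3 ≤ |a i₀| ∧ |a i₀| ≤ Q ∧ ∀ i, |a i| ≤ |a i₀| with hRel2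
  set Rel3 := (Fintype.piFinset fun _ : Fin (j' + 1) => A).filter fun Y =>
    ∃ a, IsRel Y a ∧ Prim a ∧ (∃ i, (Q : ℤ) < |a i|) ∧
      ∃ i₀, ∀ b, IsRel Y b → b i₀ = 0 → b = 0 with hRel3
  have hCB1 : (j' + 1).factorial * (C.filter (fun T => Dep T)).card ≤ (Rel1 ∪ (Rel2 ∪ Rel3)).card := by
    apply enum_card_mul
    · intro T hT
      exact (hCmem T (Finset.mem_filter.mp hT).1).2.1
    · intro T hT Y hY
      simp only [mem_filter] at hT
      obtain ⟨hTA, hTc, hTcirc⟩ := hCmem T hT.1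
      obtain ⟨Y₀, v₀, hY₀, hv₀, hrel₀⟩ := hT.2
      obtain ⟨v, hv, hrel⟩ := rel_of_enum hY hY₀ hv₀ hrel₀
      have hYA : Y ∈ Fintype.piFinset fun _ : Fin (j' + 1) => A :=
        Fintype.mem_piFinset.mpr fun i => hTA ((hY.2 _).mpr ⟨i, rfl⟩)
      obtain ⟨a, ha, hp, _⟩ := exists_prim_rel Y v hv hrel
      have hodd := rel_odd hTcirc hY ha hp
      obtain ⟨i₀, _, hmax⟩ := Finset.exists_max_image (univ : Finset (Fin (j' + 1)))
        (fun i => |a i|) ⟨0, mem_univ _⟩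
      have hmax' : ∀ i, |a i| ≤ |a i₀| := fun i => hmax i (mem_univ i)
      have habsodd : ∀ i, Odd |a i| := fun i => (odd_abs).mpr (hodd i)
      rcases eq_or_ne |a i₀| 1 with h1 | h1
      · apply mem_union_left
        simp only [hRel1, mem_filter]
        refine ⟨hYA, hY.1, a, ha, fun i => ?_⟩
        have h2 := hmax' i
        rw [h1] at h2
        obtain ⟨m, hm⟩ := habsodd i
        have h3 := abs_nonneg (a i)
        omega
      · apply mem_union_right
        obtain ⟨m, hm⟩ := habsodd i₀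
        have h3 := abs_nonneg (a i₀)
        have h4 : 3 ≤ |a i₀| := by omega
        rcases le_or_gt |a i₀| (Q : ℤ) with h5 | h5
        · apply mem_union_left
          simp only [hRel2, mem_filter]
          exact ⟨hYA, a, ha, hp, i₀, h4, h5, hmax'⟩
        · apply mem_union_right
          simp only [hRel3, mem_filter]
          exact ⟨hYA, a, ha, hp, ⟨i₀, h5⟩, i₀, fun b hb h0 =>
            rel_eq_zero_of_vanish hTcirc hY hb h0⟩
  have hcls' : ∀ q : ℕ, 2 ≤ q → q ≤ Q → ∀ x : Fin d → ℤ,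
      (((A.filter fun y => ∀ i, (q : ℤ) ∣ y i - x i).card : ℝ) ≤ 2 * M / (q : ℝ) ^ d) := hG.cls
  have hR1 : (Rel1.card : ℝ) ≤ 2 ^ (j' + 1) * (κ ^ d * (2 * M) ^ j') := by
    have := card_relOne (d := d) (j := j' + 1) A M κ hM hκ hA2 hG.energy hj2
    simpa using this
  have hR2 : (Rel2.card : ℝ) ≤ (2 * M) ^ j' * (3 ^ (2 * (j' + 1) + 3) / 3 ^ d) :=
    le_trans (card_relTwo A M Q hM hA2 hcls') (height_sum_le d j' Q M hM.le (by omega))
  have hR3 : (Rel3.card : ℝ) ≤ (2 * M) ^ j' / 2 ^ d := by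
    have h1 := card_relThree (d := d) (j := j' + 1) A W Q hG.box (by omega) (by omega) hj2 (by omega)
    refine le_trans h1 ?_
    set u := 2 * ((W - 1) / 2) + 1 with hu
    have hu1 : W - 1 ≤ u := by omega
    have huW : u ≤ W := by omega
    have hq4 : W ≤ (min Q u) ^ 4 := by
      rcases le_total Q u with h | h
      · rw [min_eq_left h]; exact hWQ
      · rw [min_eq_right h]
        have h2 : 2 ≤ u := by omega
        have h3 : 2 ^ 3 ≤ u ^ 3 := Nat.pow_le_pow_left h2 3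
        have h4 : u ^ 4 = u * u ^ 3 := by ring
        have h5 : u * 2 ^ 3 ≤ u * u ^ 3 := Nat.mul_le_mul_left _ h3
        omega
    have hminpos : 1 ≤ min Q u := le_min (by omega) (by omega)
    have h2 := tail_num d k (j' + 1) hk hj2 hjk θ Cθ hθ hCθ1 hCθ2 (u : ℝ) ((min Q u : ℕ) : ℝ)
      (W : ℝ) M (by
        have : 1 ≤ u := by omega
        exact_mod_cast this) (by exact_mod_cast huW) (by exact_mod_cast hminpos)
      (by exact_mod_cast hq4) hG.dense hWa
    simpa using h2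
  have hCB : ((j' + 1).factorial : ℝ) * ((C.filter (fun T => Dep T)).card : ℝ)
      ≤ 2 ^ (j' + 1) * (κ ^ d * (2 * M) ^ j') + (2 * M) ^ j' * (3 ^ (2 * (j' + 1) + 3) / 3 ^ d)
        + (2 * M) ^ j' / 2 ^ d := by
    have h1 : (Rel1 ∪ (Rel2 ∪ Rel3)).card ≤ Rel1.card + (Rel2.card + Rel3.card) :=
      le_trans (Finset.card_union_le _ _) (Nat.add_le_add_left (Finset.card_union_le _ _) _)
    have h2 : ((j' + 1).factorial : ℝ) * ((C.filter (fun T => Dep T)).card : ℝ) ≤
        (Rel1.card : ℝ) + (Rel2.card + Rel3.card) := by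
      exact_mod_cast le_trans hCB1 h1
    linarith
  -- assembly
  have hsum : ∑ T ∈ C, f T ≤ ((C.filter (fun T => Dep T)).card : ℝ) * (1 / (P : ℝ) ^ j')
      + ((C.filter (fun T => ¬ Dep T)).card : ℝ) * (1 / (P : ℝ) ^ (j' + 1)) := by
    rw [← Finset.sum_filter_add_sum_filter_not C (fun T => Dep T) f]
    apply add_le_add
    · calc _ ≤ ∑ _T ∈ C.filter (fun T => Dep T), 1 / (P : ℝ) ^ j' := Finset.sum_le_sum hfB
        _ = _ := by simp
    · calc _ ≤ ∑ _T ∈ C.filter (fun T => ¬ Dep T), 1 / (P : ℝ) ^ (j' + 1) := Finset.sum_le_sum hfA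
        _ = _ := by simp
  have hfac : (0 : ℝ) ≤ ((j' + 1).factorial : ℝ) := by positivity
  refine le_trans (mul_le_mul_of_nonneg_left hsum hfac) ?_
  have hp1 : (0 : ℝ) < 1 / (P : ℝ) ^ j' := by positivity
  have hp2 : (0 : ℝ) < 1 / (P : ℝ) ^ (j' + 1) := by positivity
  have hb1 := mul_le_mul_of_nonneg_right hCB hp1.le
  have hb2 := mul_le_mul_of_nonneg_right hCA hp2.le
  have e0 : ((j' + 1).factorial : ℝ) * (((C.filter (fun T => Dep T)).card : ℝ) * (1 / (P : ℝ) ^ j')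
      + ((C.filter (fun T => ¬ Dep T)).card : ℝ) * (1 / (P : ℝ) ^ (j' + 1))) =
      ((j' + 1).factorial : ℝ) * ((C.filter (fun T => Dep T)).card : ℝ) * (1 / (P : ℝ) ^ j') +
      ((j' + 1).factorial : ℝ) * ((C.filter (fun T => ¬ Dep T)).card : ℝ) * (1 / (P : ℝ) ^ (j' + 1)) := by
    ring
  rw [e0]
  refine le_trans (add_le_add hb1 hb2) (le_of_eq ?_)
  rw [div_pow]
  field_simp
  ring

end Vale.Agent.Lib.P230.Lin
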