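import Mathlib

/-!
# P230: the schedule of the base hash with `m = d / 20000`.
-/

set_option autoImplicit false

namespace Vale.Agent.Lib.P230.Lin

/-- new schedule -/
def mstar2 (d : ℕ) : ℕ := d / 20000
def efin2 (d : ℕ) : ℕ := Nat.clog 2 (2 ^ 25 * mstar2 d)
def e02 (d : ℕ) : ℕ := efin2 d + mstar2 d

end Vale.Agent.Lib.P230.Lin
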