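import Vale.Agent.Lib.P230.Base
import Vale.Agent.Lib.P230.Lin.CircTop2
import Vale.Agent.Lib.P230.Lin.Defs

/-!
# P230: the base hash with `m = d / 20000`, without the logarithmic loss.
The union bound over circuits only needs `C(2^e, j)`, not `(2^e)^j`: this is the factor `1 / j!`
of `circ_top_bound2`.
-/

set_option autoImplicit false
set_option linter.unusedSectionVars false
set_option linter.unusedSimpArgs false
set_option linter.unusedVariables false

open Finset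
open scoped Matrix Classical

namespace Vale.Agent.Lib.P230.Lin

open Vale.Agent.Lib.P230

/-- level dependent half-independence -/
def mp2 (d i : ℕ) : ℕ := mstar2 d / i + 1

/-- level dependent independence -/
def kk2 (d r : ℕ) : ℕ := 2 * mp2 d r

/-- target sizes -/
noncomputable def nu2 (d r : ℕ) : ℝ := 2 ^ (efin2 d + r - 2) * (1 + ff r)

lemma nu2_rec (d r : ℕ) (hd : 2 ≤ efin2 d) : nu2 d r ≤ (1 / 2 - dl (r + 1)) * nu2 d (r + 1) := by
  unfold nu2
  have e : efin2 d + (r + 1) - 2 = (efin2 d + r - 2) + 1 := by omega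
  rw [e, pow_succ, ff_succ]
  have h1 := ff_le (r + 1)
  rw [ff_succ] at h1
  have h2 := dl_pos (r + 1)
  have h3 := ff_nonneg r
  have h4 : (0 : ℝ) < 2 ^ (efin2 d + r - 2) := by positivity
  set a : ℝ := 2 ^ (efin2 d + r - 2)
  set f := ff r
  set δ := dl (r + 1)
  have : 0 ≤ 2 * δ * (1 - (f + 4 * δ)) := by
    apply mul_nonneg (by positivity)
    linarith
  nlinarith

lemma nu2_lower (d r : ℕ) : (2 : ℝ) ^ (efin2 d + r - 2) ≤ nu2 d r := by
  unfold nu2
  have h := ff_nonneg r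
  have h4 : (0 : ℝ) < 2 ^ (efin2 d + r - 2) := by positivity
  nlinarith

lemma nu2_upper (d r : ℕ) : nu2 d r ≤ 2 * 2 ^ (efin2 d + r - 2) := by
  unfold nu2
  have h := ff_le r
  have h4 : (0 : ℝ) < 2 ^ (efin2 d + r - 2) := by positivity
  nlinarith

lemma nu2_pos (d r : ℕ) : 0 < nu2 d r := lt_of_lt_of_le (by positivity) (nu2_lower d r)

/-- Size assumptions on the dimension, valid for all large `d`. -/
structure BigD2 (d : ℕ) : Prop where
  c1 : 1 ≤ Nat.clog 2 d
  big : 2 ^ 40 ≤ d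
  m1 : 96 ≤ mstar2 d
  efin2' : 2 ≤ efin2 d
  efinm : efin2 d ≤ mstar2 d
  em : 20000 * mstar2 d ≤ d
  cd : 10 ^ 7 * Nat.clog 2 d ≤ d

lemma bigD2_eventually : ∃ d₀ : ℕ, ∀ d ≥ d₀, BigD2 d := by
  obtain ⟨d₁, h₁⟩ := clog_small (10 ^ 9)
  refine ⟨max d₁ (2 ^ 40), fun d hd => ?_⟩
  have hd1 : d₁ ≤ d := le_trans (le_max_left _ _) hd
  have hd2 : 2 ^ 40 ≤ d := le_trans (le_max_right _ _) hd
  have hc := h₁ d hd1
  have hc1 : 1 ≤ Nat.clog 2 d := by
    apply Nat.clog_pos (by norm_num)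
    omega
  have hm : 96 ≤ mstar2 d := by
    unfold mstar2
    omega
  have hef : efin2 d ≤ mstar2 d := by
    unfold efin2
    apply Nat.clog_le_of_le_pow
    obtain ⟨n, hn⟩ : ∃ n, mstar2 d = n + 31 := ⟨mstar2 d - 31, by omega⟩
    rw [hn]
    have h1 : n < 2 ^ n := Nat.lt_two_pow_self
    have e : 2 ^ (n + 31) = 2 ^ 25 * (2 ^ 6 * 2 ^ n) := by ring
    rw [e]
    apply Nat.mul_le_mul_left
    nlinarith
  have hef2 : 2 ≤ efin2 d := by
    unfold efin2
    have h1 : 2 ^ 1 < 2 ^ 25 * mstar2 d := by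
      have : 1 ≤ mstar2 d := by omega
      nlinarith
    by_contra hcon
    have h2 : Nat.clog 2 (2 ^ 25 * mstar2 d) ≤ 1 := by omega
    have h3 := Nat.le_pow_clog (b := 2) (by norm_num) (2 ^ 25 * mstar2 d)
    have h4 : 2 ^ Nat.clog 2 (2 ^ 25 * mstar2 d) ≤ 2 ^ 1 := Nat.pow_le_pow_right (by norm_num) h2
    omega
  have hem : 20000 * mstar2 d ≤ d := by
    unfold mstar2
    omega
  exact ⟨hc1, hd2, hm, hef2, hef, hem, by nlinarith⟩

lemma hstep_main2 {d : ℕ} (h : BigD2 d) (r : ℕ) (hr : r < mstar2 d) (A : Finset (Fin d → ℤ))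
    (hν : nu2 d (r + 1) ≤ A.card) (hNS : NoShort (lift 2 d) A (kk2 d (r + 1))) :
    ((univ.filter fun x : Fin (d + 1) → ZMod 2 =>
      (((Hx (lift 2 d) x A).card : ℝ) < nu2 d r)).card : ℝ) ≤
      (1 / 2) ^ (mstar2 d / 2) * 2 ^ (d + 1) := by
  set i := r + 1 with hi
  set e := efin2 d + i with he
  set m := mstar2 d with hm
  have hefin := h.efinm
  have hefin2 := h.efin2'
  have hi1 : 1 ≤ i := by omega
  have him : i ≤ m := by omega
  set m' := mp2 d i with hm'
  have hm'1 : 1 ≤ m' := by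
    rw [hm']
    unfold mp2
    exact Nat.le_add_left 1 _
  have hmle : m' ≤ 2 * m := by
    have h1 : m / i ≤ m := Nat.div_le_self _ _
    have h2 : 96 ≤ m := h.m1
    have h3 : m' = m / i + 1 := rfl
    rw [h3]
    generalize m / i = q at h1 ⊢
    omega
  have hApos : (0 : ℝ) < A.card := lt_of_lt_of_le (nu2_pos d _) hν
  have hA : A.Nonempty := by
    rw [← Finset.card_pos]
    exact_mod_cast hApos
  have hδ := dl_pos i
  have hδ2 := dl_le i hi1
  have hmom := moment_tail (lift 2 d) A m' hm'1 hNS (dl i) hδ hA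
  have hsub : (univ.filter fun x : Fin (d + 1) → ZMod 2 =>
      (((Hx (lift 2 d) x A).card : ℝ) < nu2 d r)) ⊆
      (univ.filter fun x : Fin (d + 1) → ZMod 2 =>
      (((Hx (lift 2 d) x A).card : ℝ) < (1 / 2 - dl i) * A.card)) := by
    intro x hx
    simp only [mem_filter, mem_univ, true_and] at hx ⊢
    have h1 := nu2_rec d r hefin2
    have h2 : (1 / 2 - dl i) * nu2 d (r + 1) ≤ (1 / 2 - dl i) * A.card :=
      mul_le_mul_of_nonneg_left hν (by linarith)
    linarith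
  have hle : ((univ.filter fun x : Fin (d + 1) → ZMod 2 =>
      (((Hx (lift 2 d) x A).card : ℝ) < nu2 d r)).card : ℝ) ≤
      ((univ.filter fun x : Fin (d + 1) → ZMod 2 =>
      (((Hx (lift 2 d) x A).card : ℝ) < (1 / 2 - dl i) * A.card)).card : ℝ) := by
    exact_mod_cast Finset.card_le_card hsub
  refine le_trans hle (le_trans hmom ?_)
  rw [mul_comm]
  apply mul_le_mul_of_nonneg_right _ (by positivity)
  -- the main estimate
  set Z : ℝ := (m' : ℝ) / (2 * dl i ^ 2 * A.card) with hZ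
  have hZ0 : 0 ≤ Z := by positivity
  have hi0 : (0 : ℝ) < (i : ℝ) + 1 := by positivity
  have hepos : 2 ≤ e := by omega
  set Y : ℝ := 128 * (m' : ℝ) * ((i : ℝ) + 1) ^ 4 / 2 ^ e with hY
  have hZY : Z ≤ Y := by
    have h1 : (2 : ℝ) ^ (e - 2) ≤ A.card := by
      have h2 := nu2_lower d (r + 1)
      have h3 : efin2 d + (r + 1) - 2 = e - 2 := by omega
      rw [h3] at h2
      linarith
    have h2 : (2 : ℝ) ^ e = 4 * 2 ^ (e - 2) := by
      have : e = (e - 2) + 2 := by omega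
      conv_lhs => rw [this, pow_add]
      ring
    rw [hZ, hY, dl]
    rw [div_le_div_iff₀ (by positivity) (by positivity)]
    have h3 : (1 / (8 * ((i : ℝ) + 1) ^ 2)) ^ 2 * ((i : ℝ) + 1) ^ 4 = 1 / 64 := by
      field_simp
      ring
    have h4 : (m' : ℝ) * 2 ^ e ≤ (m' : ℝ) * (4 * A.card) := by
      apply mul_le_mul_of_nonneg_left _ (by positivity)
      rw [h2]
      linarith
    calc (m' : ℝ) * 2 ^ e ≤ (m' : ℝ) * (4 * A.card) := h4
      _ = 128 * (m' : ℝ) * ((1 / (8 * ((i : ℝ) + 1) ^ 2)) ^ 2 * ((i : ℝ) + 1) ^ 4) * (2 * A.card) := by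
          rw [h3]
          ring
      _ = _ := by ring
  have hY0 : 0 ≤ Y := by positivity
  have hfin : Y ^ m' ≤ (1 / 2) ^ (m / 2) := by
    have hmpos : (0 : ℝ) < m := by
      have := h.m1
      have : 0 < m := by omega
      exact_mod_cast this
    have h1 : (2 : ℝ) ^ 25 * m * 2 ^ i ≤ 2 ^ e := by
      have h2 : 2 ^ 25 * m ≤ 2 ^ efin2 d := Nat.le_pow_clog (by norm_num) _
      have h3 : (2 : ℝ) ^ 25 * m ≤ 2 ^ efin2 d := by exact_mod_cast h2
      have h4 : (2 : ℝ) ^ e = 2 ^ efin2 d * 2 ^ i := by rw [he, pow_add]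
      rw [h4]
      exact mul_le_mul_of_nonneg_right h3 (by positivity)
    -- the fourth power
    set a := i / 2 with ha
    have hia : i + 1 ≤ 2 * (a + 1) := by omega
    have h2 : ((i : ℝ) + 1) ^ 4 ≤ 2 ^ (a + 15) := by
      have h3 : (i + 1) ^ 4 ≤ 2 ^ (a + 15) := by
        calc (i + 1) ^ 4 ≤ (2 * (a + 1)) ^ 4 := Nat.pow_le_pow_left hia 4
          _ = 16 * (a + 1) ^ 4 := by ring
          _ ≤ 16 * 2 ^ (a + 11) := Nat.mul_le_mul_left _ (four_pow_le a)
          _ = 2 ^ (a + 15) := by ring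
      exact_mod_cast h3
    have hsplit : (i + 1) / 2 + a = i := by omega
    have hY2 : Y ≤ (1 / 2) ^ ((i + 1) / 2) := by
      rw [hY, one_div, inv_pow, ← one_div]
      rw [div_le_div_iff₀ (by positivity) (by positivity)]
      have hm2 : (m' : ℝ) ≤ 2 * m := by exact_mod_cast hmle
      calc 128 * (m' : ℝ) * ((i : ℝ) + 1) ^ 4 * 2 ^ ((i + 1) / 2)
          ≤ 128 * (2 * (m : ℝ)) * 2 ^ (a + 15) * 2 ^ ((i + 1) / 2) := by
            apply mul_le_mul_of_nonneg_right _ (by positivity)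
            apply mul_le_mul _ h2 (by positivity) (by positivity)
            exact mul_le_mul_of_nonneg_left hm2 (by norm_num)
        _ = 2 ^ 23 * (m : ℝ) * (2 ^ a * 2 ^ ((i + 1) / 2)) := by
            rw [pow_add (2 : ℝ) a 15]
            ring
        _ = 2 ^ 23 * (m : ℝ) * 2 ^ i := by
            rw [← pow_add, add_comm a, hsplit]
        _ ≤ 2 ^ 25 * (m : ℝ) * 2 ^ i := by
            apply mul_le_mul_of_nonneg_right _ (by positivity)
            apply mul_le_mul_of_nonneg_right _ hmpos.le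
            norm_num
        _ ≤ 2 ^ e := h1
        _ = 1 * 2 ^ e := by ring
    have hexp : m / 2 ≤ ((i + 1) / 2) * m' := by
      have h3 : m < i * (m / i + 1) := Nat.lt_mul_div_succ m (by omega)
      have h4 : m' = m / i + 1 := rfl
      rw [← h4] at h3
      have h5 : i ≤ 2 * ((i + 1) / 2) := by omega
      have h6 : i * m' ≤ 2 * ((i + 1) / 2) * m' := Nat.mul_le_mul_right _ h5
      apply Nat.div_le_of_le_mul
      nlinarith
    calc Y ^ m' ≤ ((1 / 2) ^ ((i + 1) / 2)) ^ m' := pow_le_pow_left₀ hY0 hY2 _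
      _ = (1 / 2) ^ (((i + 1) / 2) * m') := by rw [pow_mul]
      _ ≤ (1 / 2) ^ (m / 2) := pow_le_pow_of_le_one (by norm_num) (by norm_num) hexp
  exact le_trans (pow_le_pow_left₀ hZ0 hZY _) hfin

/-- The factorial beats the union bound over circuits. -/
lemma fact_pow_bound {m r' j D e : ℕ} (hr1 : 1 ≤ r') (hr2 : r' ≤ m) (hj2 : 2 ≤ j)
    (hj : j ≤ 2 * (m / r' + 1)) (he : (2 : ℝ) ^ e ≤ 2 ^ 29 * m * 2 ^ r') (hD : 68 * m + 60 ≤ D) :
    (2 : ℝ) ^ (e * (j - 1)) ≤ (j.factorial : ℝ) * 2 ^ D := by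
  set q := m / r' with hq
  set J := 2 * (q + 1) with hJ
  set x : ℝ := (J : ℝ) with hx
  have hx0 : 0 ≤ x := by positivity
  set c : ℝ := 2 ^ (28 + 2 * r') with hc
  have hc1 : 1 ≤ c := one_le_pow₀ (by norm_num)
  have hB : (2 : ℝ) ^ e ≤ c * x := by
    have h1 : m ≤ (q + 1) * r' := by
      have := (Nat.lt_mul_div_succ m (show 0 < r' by omega)).le
      rw [mul_comm] at this
      exact this
    have h2 : (m : ℝ) ≤ (q + 1 : ℕ) * (r' : ℝ) := by exact_mod_cast h1
    have h3 : (r' : ℝ) ≤ 2 ^ r' := by exact_mod_cast (Nat.lt_two_pow_self (n := r')).le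
    have hxq : x = 2 * ((q + 1 : ℕ) : ℝ) := by
      rw [hx, hJ]
      push_cast
      ring
    have hq0 : (0 : ℝ) ≤ ((q + 1 : ℕ) : ℝ) := by positivity
    calc (2 : ℝ) ^ e ≤ 2 ^ 29 * m * 2 ^ r' := he
      _ ≤ 2 ^ 29 * (((q + 1 : ℕ) : ℝ) * 2 ^ r') * 2 ^ r' := by
          apply mul_le_mul_of_nonneg_right _ (by positivity)
          apply mul_le_mul_of_nonneg_left _ (by norm_num)
          exact le_trans h2 (mul_le_mul_of_nonneg_left h3 hq0)
      _ = c * x := by
          have e2 : (2 : ℝ) ^ (28 + 2 * r') = 2 ^ 28 * (2 ^ r' * 2 ^ r') := by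
            rw [pow_add, two_mul, pow_add]
          rw [hc, hxq, e2]
          ring
  have hB1 : (1 : ℝ) ≤ 2 ^ e := one_le_pow₀ (by norm_num)
  have hjJ : j ≤ J := hj
  have hfac : x ^ j ≤ (j.factorial : ℝ) * Real.exp x := by
    have := Real.pow_div_factorial_le_exp x hx0 j
    have hf : (0 : ℝ) < j.factorial := by positivity
    rw [div_le_iff₀ hf] at this
    linarith
  have hexp : Real.exp x ≤ 2 ^ (2 * J) := by
    have e1 : Real.exp x = Real.exp 1 ^ J := by rw [hx, Real.exp_one_pow]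
    have e2 : (2 : ℝ) ^ (2 * J) = 4 ^ J := by
      rw [pow_mul]
      norm_num
    rw [e1, e2]
    apply pow_le_pow_left₀ (Real.exp_pos _).le
    have := Real.exp_one_lt_d9
    linarith
  have hexpo : (30 + 2 * r') * J ≤ D := by
    have h1 : q ≤ m := Nat.div_le_self _ _
    have h2 : r' * q ≤ m := Nat.mul_div_le m r'
    have e1 : (30 + 2 * r') * J = 60 * q + 60 + 4 * (r' * q) + 4 * r' := by
      rw [hJ]
      ring
    rw [e1]
    omega
  calc (2 : ℝ) ^ (e * (j - 1)) = (2 ^ e) ^ (j - 1) := by rw [pow_mul]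
    _ ≤ (2 ^ e) ^ j := pow_le_pow_right₀ hB1 (by omega)
    _ ≤ (c * x) ^ j := pow_le_pow_left₀ (by positivity) hB _
    _ = c ^ j * x ^ j := by rw [mul_pow]
    _ ≤ c ^ J * ((j.factorial : ℝ) * 2 ^ (2 * J)) := by
        apply mul_le_mul (pow_le_pow_right₀ hc1 hjJ) _ (by positivity) (by positivity)
        exact le_trans hfac (mul_le_mul_of_nonneg_left hexp (by positivity))
    _ = (j.factorial : ℝ) * 2 ^ ((30 + 2 * r') * J) := by
        rw [hc, ← pow_mul]
        have : (30 + 2 * r') * J = (28 + 2 * r') * J + 2 * J := by ring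
        rw [this, pow_add]
        ring
    _ ≤ (j.factorial : ℝ) * 2 ^ D := by
        apply mul_le_mul_of_nonneg_left _ (by positivity)
        exact pow_le_pow_right₀ (by norm_num) hexpo

/-- Size of the error term `X_j`. -/
lemma X_bound2 {d : ℕ} (h : BigD2 d) (M P : ℝ) (hP : 0 < P) (hMP : M ≤ 2 ^ (e02 d + 2) * P) (j : ℕ)
    (hj : j ≤ 2 * mstar2 d + 2) :
    (2 * M / P) / 2 ^ d + 2 ^ j * (99 / 100 : ℝ) ^ d + 3 ^ (2 * j + 3) / 3 ^ d + 1 / 2 ^ d ≤
      2 ^ (2 * mstar2 d + 4) * (1 / 2) ^ (d / 70) := by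
  have hem := h.em
  have hm := h.m1
  have hef := h.efinm
  have hbig := h.big
  have hq : (d / 70) * 70 ≤ d := Nat.div_mul_le_self _ _
  have he0 : e02 d + 3 ≤ d := by
    unfold e02
    omega
  have hq1 : d / 70 ≤ d - (e02 d + 3) := by
    unfold e02
    omega
  have hq2 : d / 70 ≤ d - (2 * j + 3) := by omega
  have hq3 : 2 * j + 3 ≤ d := by omega
  set B : ℝ := (1 / 2) ^ (d / 70) with hB
  have hB0 : 0 < B := by positivity
  have ha : (2 * M / P) / 2 ^ d ≤ B := by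
    have h1 : 2 * M / P ≤ 2 ^ (e02 d + 3) := by
      rw [div_le_iff₀ hP, pow_succ]
      have e : (2 : ℝ) ^ (e02 d + 2) * 2 * P = 2 * (2 ^ (e02 d + 2) * P) := by ring
      rw [e]
      linarith
    have h2 : (2 : ℝ) ^ d = 2 ^ (e02 d + 3) * 2 ^ (d - (e02 d + 3)) := by
      rw [← pow_add, Nat.add_sub_cancel' he0]
    calc (2 * M / P) / 2 ^ d ≤ 2 ^ (e02 d + 3) / 2 ^ d :=
          div_le_div_of_nonneg_right h1 (by positivity)
      _ = (1 / 2) ^ (d - (e02 d + 3)) := by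
          rw [h2, one_div, inv_pow]
          have : (2 : ℝ) ^ (e02 d + 3) ≠ 0 := by positivity
          field_simp
      _ ≤ B := pow_le_pow_of_le_one (by norm_num) (by norm_num) hq1
  have hb : 2 ^ j * (99 / 100 : ℝ) ^ d ≤ 2 ^ (2 * mstar2 d + 2) * B := by
    apply mul_le_mul (pow_le_pow_right₀ (by norm_num) hj) _ (by positivity) (by positivity)
    calc (99 / 100 : ℝ) ^ d ≤ (99 / 100 : ℝ) ^ (70 * (d / 70)) :=
          pow_le_pow_of_le_one (by norm_num) (by norm_num) (by omega)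
      _ = ((99 / 100 : ℝ) ^ 70) ^ (d / 70) := by rw [pow_mul]
      _ ≤ B := pow_le_pow_left₀ (by norm_num) (by norm_num) _
  have hc : (3 : ℝ) ^ (2 * j + 3) / 3 ^ d ≤ B := by
    have h2 : (3 : ℝ) ^ d = 3 ^ (2 * j + 3) * 3 ^ (d - (2 * j + 3)) := by
      rw [← pow_add, Nat.add_sub_cancel' hq3]
    calc (3 : ℝ) ^ (2 * j + 3) / 3 ^ d = (1 / 3) ^ (d - (2 * j + 3)) := by
          rw [h2, one_div, inv_pow]
          have : (3 : ℝ) ^ (2 * j + 3) ≠ 0 := by positivity
          field_simp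
      _ ≤ (1 / 2) ^ (d - (2 * j + 3)) := pow_le_pow_left₀ (by norm_num) (by norm_num) _
      _ ≤ B := pow_le_pow_of_le_one (by norm_num) (by norm_num) hq2
  have hd : (1 : ℝ) / 2 ^ d ≤ B := by
    rw [one_div, ← inv_pow, ← one_div]
    exact pow_le_pow_of_le_one (by norm_num) (by norm_num) (Nat.div_le_self _ _)
  have h1 : (1 : ℝ) ≤ 2 ^ (2 * mstar2 d + 2) := one_le_pow₀ (by norm_num)
  have e : (2 : ℝ) ^ (2 * mstar2 d + 4) = 4 * 2 ^ (2 * mstar2 d + 2) := by
    rw [pow_add, pow_add]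
    ring
  rw [e]
  nlinarith

/-- The total void probability of one set under the prime hash followed by the chain. -/
lemma total_bound2 {d P : ℕ} [Fact P.Prime] (h : BigD2 d) (A : Finset (Fin d → ℤ)) (M : ℝ)
    (hM : 0 < M) (hlo : M / 2 ≤ A.card)
    (hinj : ∀ y ∈ A, ∀ y' ∈ A, y ≠ y' → ∃ i, ¬ (P : ℤ) ∣ y i - y' i)
    (hP1 : 2 ^ (e02 d + 1) * (P : ℝ) ≤ M) (hP2 : M ≤ 2 ^ (e02 d + 2) * (P : ℝ))
    (hcirc : ∀ j, 2 ≤ j → j ≤ 2 * mstar2 d + 2 →
      (j.factorial : ℝ) * ∑ T ∈ (A.powersetCard j).filter (fun T => IsCirc (lift 2 d) T),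
        (((univ.filter fun x : Fin (d + 1) → ZMod P => ∀ y ∈ T, x ⬝ᵥ lift P d y = 0).card : ℝ) /
          (P : ℝ) ^ (d + 1)) ≤
      (2 * M / P) ^ (j - 1) *
        ((2 * M / P) / 2 ^ d + 2 ^ j * (99 / 100 : ℝ) ^ d + 3 ^ (2 * j + 3) / 3 ^ d + 1 / 2 ^ d)) :
    ∑ x : Fin (d + 1) → ZMod P, voidP (lift 2 d) (mstar2 d) (Hx (lift P d) x A) ≤
      (P : ℝ) ^ (d + 1) * (5 * (1 / 2) ^ mstar2 d + mstar2 d * (1 / 2) ^ (mstar2 d / 2)) := by
  set m := mstar2 d with hm
  have hPpos : (0 : ℝ) < P := by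
    have : 0 < P := (Fact.out : P.Prime).pos
    exact_mod_cast this
  have hPd : (0 : ℝ) < (P : ℝ) ^ (d + 1) := by positivity
  set ξ : ℝ := (1 / 2) ^ (m / 2) with hξ
  have hchain := chain (lift 2 d) (lift_two_ne d) (kk2 d) (nu2 d) ξ (nu2_pos d 0) (by positivity) m
    (fun r hr A' hν hNS => hstep_main2 h r hr A' hν hNS) m le_rfl
  set H : (Fin (d + 1) → ZMod P) → Finset (Fin d → ℤ) := fun x => Hx (lift P d) x A with hH
  have hcardx : ∑ _x : Fin (d + 1) → ZMod P, (1 : ℝ) = (P : ℝ) ^ (d + 1) := by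
    simp [Finset.card_univ, ZMod.card]
  -- first term
  have hApos : (0 : ℝ) < A.card := by linarith
  have hA : A.Nonempty := by
    rw [← Finset.card_pos]
    exact_mod_cast hApos
  have hAP : (2 : ℝ) ^ e02 d ≤ (A.card : ℝ) / P := by
    rw [le_div_iff₀ hPpos]
    rw [pow_succ] at hP1
    nlinarith
  have h1 : ∑ x, (if ((H x).card : ℝ) < nu2 d m then (1 : ℝ) else 0) ≤
      (P : ℝ) ^ (d + 1) * (4 * (1 / 2) ^ m) := by
    have e1 : ∑ x, (if ((H x).card : ℝ) < nu2 d m then (1 : ℝ) else 0) =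
        ((univ.filter fun x : Fin (d + 1) → ZMod P => (((H x).card : ℝ) < nu2 d m)).card : ℝ) := by
      rw [Finset.card_filter]
      push_cast
      rfl
    rw [e1]
    have hsub : (univ.filter fun x : Fin (d + 1) → ZMod P => (((H x).card : ℝ) < nu2 d m)) ⊆
        (univ.filter fun x : Fin (d + 1) → ZMod P =>
          (((Hx (lift P d) x A).card : ℝ) < (A.card : ℝ) / P / 2)) := by
      intro x hx
      simp only [mem_filter, mem_univ, true_and] at hx ⊢
      have h2 := nu2_upper d m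
      have h3 : efin2 d + m - 2 + 1 = e02 d - 1 := by
        unfold e02
        have := h.efin2'
        omega
      have h4 : (2 : ℝ) * 2 ^ (efin2 d + m - 2) = 2 ^ (e02 d - 1) := by
        rw [← h3, pow_succ]
        ring
      have h5 : (2 : ℝ) ^ e02 d = 2 * 2 ^ (e02 d - 1) := by
        have : e02 d = (e02 d - 1) + 1 := by
          unfold e02
          have := h.efin2'
          omega
        conv_lhs => rw [this, pow_succ]
        ring
      have h6 : (H x).card = (Hx (lift P d) x A).card := rfl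
      rw [← h6]
      linarith
    have h2 := top_cheb A hinj hA
    have h3 : ((univ.filter fun x : Fin (d + 1) → ZMod P => (((H x).card : ℝ) < nu2 d m)).card : ℝ) ≤
        ((univ.filter fun x : Fin (d + 1) → ZMod P =>
          (((Hx (lift P d) x A).card : ℝ) < (A.card : ℝ) / P / 2)).card : ℝ) := by
      exact_mod_cast Finset.card_le_card hsub
    refine le_trans h3 (le_trans h2 ?_)
    apply mul_le_mul_of_nonneg_left _ hPd.le
    have h4 : (0 : ℝ) < 2 ^ e02 d := by positivity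
    calc 4 / ((A.card : ℝ) / P) ≤ 4 / 2 ^ e02 d := div_le_div_of_nonneg_left (by norm_num) h4 hAP
      _ = 4 * (1 / 2) ^ e02 d := by
          rw [one_div, inv_pow]
          rfl
      _ ≤ 4 * (1 / 2) ^ m := by
          apply mul_le_mul_of_nonneg_left _ (by norm_num)
          apply pow_le_pow_of_le_one (by norm_num) (by norm_num)
          unfold e02
          omega
  -- second term
  have h2 : ∑ x, pot (lift 2 d) (kk2 d) m (H x) ≤ (P : ℝ) ^ (d + 1) * (1 / 2) ^ m := by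
    unfold pot
    rw [Finset.sum_comm]
    have hem := h.em
    have hmm := h.m1
    set Tm : ℝ := 2 ^ (d / 250) * (2 ^ (2 * m + 4) * (1 / 2) ^ (d / 70)) with hTm
    have hTm0 : 0 ≤ Tm := by positivity
    have hterm : ∀ r' ∈ Finset.Icc 1 m, ∑ x, ∑ j ∈ Finset.Icc 2 (kk2 d r'),
        (circ (lift 2 d) j (H x) : ℝ) * (1 / 2) ^ ((m - r') * (j - 1)) ≤
        (P : ℝ) ^ (d + 1) * ((2 * m + 2) * Tm) := by
      intro r' hr'
      have hr1 := (Finset.mem_Icc.mp hr').1
      have hr2 := (Finset.mem_Icc.mp hr').2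
      rw [Finset.sum_comm]
      have hkk : kk2 d r' ≤ 2 * m + 2 := by
        unfold kk2 mp2
        have : mstar2 d / r' ≤ mstar2 d := Nat.div_le_self _ _
        omega
      have hj : ∀ j ∈ Finset.Icc 2 (kk2 d r'), ∑ x, (circ (lift 2 d) j (H x) : ℝ) *
          (1 / 2) ^ ((m - r') * (j - 1)) ≤ (P : ℝ) ^ (d + 1) * Tm := by
        intro j hj
        have hj1 := (Finset.mem_Icc.mp hj).1
        have hj2 := (Finset.mem_Icc.mp hj).2
        have hj3 : j ≤ 2 * m + 2 := le_trans hj2 hkk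
        rw [← Finset.sum_mul]
        have e1 := sum_circ_Hx (lift 2 d) (lift P d) j A
        have e2 : ∑ x, (circ (lift 2 d) j (H x) : ℝ) =
            (P : ℝ) ^ (d + 1) *
            ∑ T ∈ (A.powersetCard j).filter (fun T => IsCirc (lift 2 d) T),
            (((univ.filter fun x : Fin (d + 1) → ZMod P => ∀ y ∈ T, x ⬝ᵥ lift P d y = 0).card : ℝ) /
              (P : ℝ) ^ (d + 1)) := by
          rw [e1, Finset.mul_sum]
          apply Finset.sum_congr rfl
          intro T _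
          field_simp
        rw [e2, mul_assoc]
        apply mul_le_mul_of_nonneg_left _ hPd.le
        have h3 := hcirc j hj1 hj3
        have h4 := X_bound2 h M P hPpos hP2 j hj3
        set SS := ∑ T ∈ (A.powersetCard j).filter (fun T => IsCirc (lift 2 d) T),
            (((univ.filter fun x : Fin (d + 1) → ZMod P => ∀ y ∈ T, x ⬝ᵥ lift P d y = 0).card : ℝ) /
              (P : ℝ) ^ (d + 1))
        set y : ℝ := 2 * M / P with hy
        have hy0 : 0 ≤ y := by positivity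
        have hy1 : y ≤ 2 ^ (e02 d + 3) := by
          rw [hy, div_le_iff₀ hPpos, pow_succ]
          have e : (2 : ℝ) ^ (e02 d + 2) * 2 * P = 2 * (2 ^ (e02 d + 2) * P) := by ring
          rw [e]
          linarith
        have hfacpos : (0 : ℝ) < j.factorial := by positivity
        have h5 : y ^ (j - 1) * (1 / 2 : ℝ) ^ ((m - r') * (j - 1)) ≤
            (j.factorial : ℝ) * 2 ^ (d / 250) := by
          have e3 : (1 / 2 : ℝ) ^ ((m - r') * (j - 1)) = ((1 / 2 : ℝ) ^ (m - r')) ^ (j - 1) := by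
            rw [pow_mul]
          rw [e3, ← mul_pow]
          have e4 : y * (1 / 2 : ℝ) ^ (m - r') ≤ 2 ^ (efin2 d + r' + 3) := by
            have e5 : (2 : ℝ) ^ (e02 d + 3) = 2 ^ (efin2 d + r' + 3) * 2 ^ (m - r') := by
              rw [← pow_add]
              unfold e02
              congr 1
              omega
            rw [e5] at hy1
            have h6 : (0 : ℝ) < 2 ^ (m - r') := by positivity
            rw [one_div, inv_pow]
            rw [← div_eq_mul_inv, div_le_iff₀ h6]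
            exact hy1
          have hefin_up : (2 : ℝ) ^ efin2 d ≤ 2 ^ 26 * m := by
            have h7 : 2 ^ (efin2 d - 1) < 2 ^ 25 * m := by
              have h8 := Nat.pow_pred_clog_lt_self (b := 2) (by norm_num)
                (x := 2 ^ 25 * mstar2 d) (by
                  have : 1 ≤ mstar2 d := by omega
                  nlinarith)
              simpa [efin2] using h8
            have h9 : 2 ^ efin2 d = 2 * 2 ^ (efin2 d - 1) := by
              have h10 := h.efin2'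
              have : efin2 d = (efin2 d - 1) + 1 := by omega
              conv_lhs => rw [this, pow_succ]
              ring
            have h11 : 2 ^ efin2 d ≤ 2 ^ 26 * m := by
              rw [h9]
              have : 2 ^ 26 * m = 2 * (2 ^ 25 * m) := by ring
              omega
            exact_mod_cast h11
          have hE : (2 : ℝ) ^ (efin2 d + r' + 3) ≤ 2 ^ 29 * m * 2 ^ r' := by
            have h12 : (2 : ℝ) ^ (efin2 d + r' + 3) = 2 ^ efin2 d * (2 ^ r' * 2 ^ 3) := by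
              rw [pow_add, pow_add]
              ring
            rw [h12]
            calc (2 : ℝ) ^ efin2 d * (2 ^ r' * 2 ^ 3) ≤ (2 ^ 26 * m) * (2 ^ r' * 2 ^ 3) :=
                  mul_le_mul_of_nonneg_right hefin_up (by positivity)
              _ = _ := by ring
          have hD : 68 * m + 60 ≤ d / 250 := by
            have h13 := h.big
            omega
          have hjk : j ≤ 2 * (m / r' + 1) := hj2
          have h14 := fact_pow_bound hr1 hr2 hj1 hjk hE hD
          calc (y * (1 / 2 : ℝ) ^ (m - r')) ^ (j - 1) ≤ (2 ^ (efin2 d + r' + 3)) ^ (j - 1) :=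
                pow_le_pow_left₀ (by positivity) e4 _
            _ = 2 ^ ((efin2 d + r' + 3) * (j - 1)) := by rw [pow_mul]
            _ ≤ _ := h14
        have hX0 : 0 ≤ (y / 2 ^ d + 2 ^ j * (99 / 100 : ℝ) ^ d + 3 ^ (2 * j + 3) / 3 ^ d + 1 / 2 ^ d) := by
          positivity
        have hmain : (j.factorial : ℝ) * (SS * (1 / 2) ^ ((m - r') * (j - 1))) ≤
            (j.factorial : ℝ) * Tm := by
          calc (j.factorial : ℝ) * (SS * (1 / 2) ^ ((m - r') * (j - 1)))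
              = ((j.factorial : ℝ) * SS) * (1 / 2) ^ ((m - r') * (j - 1)) := by ring
            _ ≤ (y ^ (j - 1) * (y / 2 ^ d + 2 ^ j * (99 / 100 : ℝ) ^ d + 3 ^ (2 * j + 3) / 3 ^ d +
                1 / 2 ^ d)) * (1 / 2) ^ ((m - r') * (j - 1)) :=
                mul_le_mul_of_nonneg_right h3 (by positivity)
            _ = (y ^ (j - 1) * (1 / 2) ^ ((m - r') * (j - 1))) *
                (y / 2 ^ d + 2 ^ j * (99 / 100 : ℝ) ^ d + 3 ^ (2 * j + 3) / 3 ^ d + 1 / 2 ^ d) := by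
                ring
            _ ≤ ((j.factorial : ℝ) * 2 ^ (d / 250)) * (2 ^ (2 * m + 4) * (1 / 2) ^ (d / 70)) := by
                apply mul_le_mul h5 h4 hX0 (by positivity)
            _ = (j.factorial : ℝ) * Tm := by
                rw [hTm]
                ring
        exact le_of_mul_le_mul_left hmain hfacpos
      calc _ ≤ ∑ _j ∈ Finset.Icc 2 (kk2 d r'), (P : ℝ) ^ (d + 1) * Tm := Finset.sum_le_sum hj
        _ = (Finset.Icc 2 (kk2 d r')).card * ((P : ℝ) ^ (d + 1) * Tm) := by simp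
        _ ≤ ((2 * m + 2 : ℕ) : ℝ) * ((P : ℝ) ^ (d + 1) * Tm) := by
            apply mul_le_mul_of_nonneg_right _ (by positivity)
            have : (Finset.Icc 2 (kk2 d r')).card ≤ 2 * m + 2 := by
              rw [Nat.card_Icc]
              omega
            exact_mod_cast this
        _ = _ := by
            push_cast
            ring
    calc _ ≤ ∑ _r' ∈ Finset.Icc 1 m, (P : ℝ) ^ (d + 1) * ((2 * m + 2) * Tm) := Finset.sum_le_sum hterm
      _ = (m : ℝ) * ((P : ℝ) ^ (d + 1) * ((2 * m + 2) * Tm)) := by simp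
      _ ≤ (P : ℝ) ^ (d + 1) * (1 / 2) ^ m := by
          have e0' : (m : ℝ) * ((P : ℝ) ^ (d + 1) * ((2 * m + 2) * Tm)) =
              (P : ℝ) ^ (d + 1) * ((2 * (m : ℝ) + 2) * m * Tm) := by ring
          rw [e0']
          apply mul_le_mul_of_nonneg_left _ hPd.le
          have hc1 : 2 * m + 2 ≤ 2 ^ Nat.clog 2 d := by
            have := Nat.le_pow_clog (b := 2) (by norm_num) d
            omega
          have hc2 : (2 * (m : ℝ) + 2) ≤ 2 ^ Nat.clog 2 d := by exact_mod_cast hc1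
          have hc3 : (2 * (m : ℝ) + 2) * m ≤ 2 ^ (2 * Nat.clog 2 d) := by
            have hm0 : (0 : ℝ) ≤ m := Nat.cast_nonneg _
            have : (m : ℝ) ≤ 2 ^ Nat.clog 2 d := by nlinarith
            rw [two_mul (Nat.clog 2 d), pow_add]
            exact mul_le_mul hc2 this hm0 (by positivity)
          have hexp : 2 * Nat.clog 2 d + d / 250 + (2 * m + 4) + m ≤ d / 70 := by
            have h1 := Nat.div_mul_le_self d 250
            have h2 := Nat.div_add_mod d 70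
            have h3 := Nat.mod_lt d (show 0 < 70 by norm_num)
            have h4 := h.cd
            omega
          have hfin : (2 : ℝ) ^ (2 * Nat.clog 2 d) * Tm ≤ (1 / 2) ^ m := by
            rw [hTm]
            have e : (2 : ℝ) ^ (2 * Nat.clog 2 d) * (2 ^ (d / 250) * (2 ^ (2 * m + 4) * (1 / 2) ^ (d / 70))) =
                2 ^ (2 * Nat.clog 2 d + d / 250 + (2 * m + 4)) * (1 / 2) ^ (d / 70) := by
              rw [pow_add, pow_add]
              ring
            rw [e]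
            obtain ⟨z, hz⟩ := Nat.exists_eq_add_of_le hexp
            rw [hz, add_assoc (2 * Nat.clog 2 d + d / 250 + (2 * m + 4)) m z, two_pow_half]
            exact pow_le_pow_of_le_one (by norm_num) (by norm_num) (Nat.le_add_right _ _)
          calc (2 * (m : ℝ) + 2) * m * Tm ≤ 2 ^ (2 * Nat.clog 2 d) * Tm :=
                mul_le_mul_of_nonneg_right hc3 hTm0
            _ ≤ _ := hfin
  -- assemble
  have hsum : ∑ x, voidP (lift 2 d) m (H x) ≤ ∑ x, ((if ((H x).card : ℝ) < nu2 d m then (1 : ℝ) else 0) +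
      pot (lift 2 d) (kk2 d) m (H x) + m * ξ) := Finset.sum_le_sum fun x _ => hchain (H x)
  rw [Finset.sum_add_distrib, Finset.sum_add_distrib] at hsum
  have h3 : ∑ _x : Fin (d + 1) → ZMod P, (m : ℝ) * ξ = (P : ℝ) ^ (d + 1) * (m * ξ) := by
    simp [Finset.card_univ, ZMod.card]
  rw [h3] at hsum
  calc _ ≤ _ := hsum
    _ ≤ (P : ℝ) ^ (d + 1) * (4 * (1 / 2) ^ m) + (P : ℝ) ^ (d + 1) * (1 / 2) ^ m +
        (P : ℝ) ^ (d + 1) * (m * ξ) := by
        linarith
    _ = _ := by ring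

/-- one member of the family -/
lemma member_bound2 {d P : ℕ} [Fact P.Prime] (h : BigD2 d) (θ : ℝ) (W₀' : ℕ)
    (hW₀' : ∀ (A : Finset (Fin d → ℤ)) (M : ℝ) (W Q P : ℕ) [Fact P.Prime] (κ : ℝ),
      Good A M W Q κ θ → 0 ≤ κ → W₀' ≤ W → Q ≤ W → W ≤ Q ^ 4 → M ≤ 2 ^ d * (P : ℝ) →
      ∀ j, 2 ≤ j → j ≤ 2 * mstar2 d + 2 →
        (j.factorial : ℝ) * ∑ T ∈ (A.powersetCard j).filter (fun T => IsCirc (lift 2 d) T),
          (((univ.filter fun x : Fin (d + 1) → ZMod P => ∀ y ∈ T, x ⬝ᵥ lift P d y = 0).card : ℝ) /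
            (P : ℝ) ^ (d + 1)) ≤
        (2 * M / P) ^ (j - 1) *
          ((2 * M / P) / 2 ^ d + 2 ^ j * κ ^ d + 3 ^ (2 * j + 3) / 3 ^ d + 1 / 2 ^ d))
    (A : Finset (Fin d → ℤ)) (M : ℝ) (W Q : ℕ) (hg : Good A M W Q (99 / 100) θ)
    (hW1 : W₀' ≤ W) (hQ1 : Q ≤ W) (hQ2 : W ≤ Q ^ 4) (hWP : (W : ℝ) ≤ P)
    (hP1 : 2 ^ (e02 d + 1) * (P : ℝ) ≤ M) (hP2 : M ≤ 2 ^ (e02 d + 2) * (P : ℝ)) :
    ∑ r : Fin d → ZMod P, ∑ ρ : Fin (mstar2 d) → Fin d → ZMod 2,
      ((univ.filter fun c : ZMod P × (Fin (mstar2 d) → ZMod 2) =>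
        ∀ y ∈ A, hash r ρ y ≠ c).card : ℝ) ≤
      ((2 : ℝ) ^ (d + 1)) ^ mstar2 d *
        ((P : ℝ) ^ (d + 1) * (5 * (1 / 2) ^ mstar2 d + mstar2 d * (1 / 2) ^ (mstar2 d / 2))) := by
  have hPpos : (0 : ℝ) < P := by
    have : 0 < P := (Fact.out : P.Prime).pos
    exact_mod_cast this
  rw [sum_void_eq]
  apply mul_le_mul_of_nonneg_left _ (by positivity)
  have hem := h.em
  have he0d : e02 d + 2 ≤ d := by
    have := h.efinm
    have := h.m1
    unfold e02
    omega
  have hMd : M ≤ 2 ^ d * (P : ℝ) := by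
    refine le_trans hP2 (mul_le_mul_of_nonneg_right ?_ hPpos.le)
    exact pow_le_pow_right₀ (by norm_num) he0d
  refine total_bound2 h A M hg.M_pos hg.card_lo ?_ hP1 hP2 ?_
  · intro y hy y' hy' hne
    obtain ⟨i, hi⟩ := Function.ne_iff.mp hne
    refine ⟨i, fun hdvd => ?_⟩
    have h1 := hg.box y hy i
    have h2 := hg.box y' hy' i
    have h3 : |y i - y' i| < (P : ℤ) := by
      have h4 : (W : ℤ) ≤ P := by exact_mod_cast hWP
      have h5 : |y i - y' i| ≤ |y i| + |y' i| := abs_sub _ _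
      have h6 : 0 ≤ |y i| := abs_nonneg _
      have h7 : 0 ≤ |y' i| := abs_nonneg _
      omega
    have h8 := Int.eq_zero_of_abs_lt_dvd hdvd h3
    apply hi
    omega
  · intro j hj1 hj2
    exact hW₀' A M W Q P (99 / 100) hg (by norm_num) hW1 hQ1 hQ2 hMd j hj1 hj2

/-- MODULE base: the hash with small void for a whole family. -/
theorem base_hash2 : ∃ d₀ : ℕ, ∀ d ≥ d₀, ∀ θ : ℝ, 0 < θ → ∃ W₀ : ℕ,
    ∀ (U : Type) [Fintype U] (Afam : U → Finset (Fin d → ℤ)) (M : ℝ) (W Q P : ℕ) [Fact P.Prime]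
      (Y0 : Finset (Fin d → ℤ)),
      (Fintype.card U : ℝ) ≤ 2 ^ (mstar2 d / 16) → W₀ ≤ W → Q ≤ W → W ≤ Q ^ 4 →
      (∀ u, Good (Afam u) M W Q (99 / 100) θ) →
      2 ^ (e02 d + 1) * (P : ℝ) ≤ M → M ≤ 2 ^ (e02 d + 2) * (P : ℝ) →
      (∀ y ∈ Y0, ∃ i, ¬ (P : ℤ) ∣ y i) → 8 * Y0.card ≤ P →
      ∃ (r : Fin d → ZMod P) (ρ : Fin (mstar2 d) → Fin d → ZMod 2),
        (∀ y ∈ Y0, hash r ρ y ≠ 0) ∧
        ∀ u, (((univ.filter fun c : ZMod P × (Fin (mstar2 d) → ZMod 2) =>
            ∀ y ∈ Afam u, hash r ρ y ≠ c).card : ℝ) ≤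
          (1 / 2 : ℝ) ^ (mstar2 d / 4) * ((P : ℝ) * 2 ^ mstar2 d)) := by
  obtain ⟨d₁, hd₁⟩ := bigD2_eventually
  refine ⟨d₁, fun d hd θ hθ => ?_⟩
  have h := hd₁ d hd
  set m := mstar2 d with hm
  have hem : 20000 * m ≤ d := h.em
  have hm96 : 96 ≤ m := h.m1
  have hk : 6 * (2 * m + 2) ≤ d := by omega
  obtain ⟨W₀', hW₀'⟩ := circ_top_bound2 d (2 * m + 2) hk θ hθ
  set W₁ : ℕ := ⌈(2 : ℝ) ^ (e02 d + 3) / θ⌉₊ + 1 with hW₁
  refine ⟨max W₀' W₁, ?_⟩
  intro U _ Afam M W Q P _ Y0 hU hW hQ1 hQ2 hgood hP1 hP2 hY0 hY0c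
  have hW1 : W₀' ≤ W := le_trans (le_max_left _ _) hW
  have hW2 : W₁ ≤ W := le_trans (le_max_right _ _) hW
  have hPpos : (0 : ℝ) < P := by
    have : 0 < P := (Fact.out : P.Prime).pos
    exact_mod_cast this
  have hWθ : (2 : ℝ) ^ (e02 d + 3) ≤ θ * W := by
    have h1 : (2 : ℝ) ^ (e02 d + 3) / θ ≤ W := by
      have h2 := Nat.le_ceil ((2 : ℝ) ^ (e02 d + 3) / θ)
      have h3 : ((⌈(2 : ℝ) ^ (e02 d + 3) / θ⌉₊ : ℕ) : ℝ) ≤ W := by
        have : ⌈(2 : ℝ) ^ (e02 d + 3) / θ⌉₊ ≤ W := by omega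
        exact_mod_cast this
      linarith
    rw [div_le_iff₀ hθ] at h1
    linarith
  have hWpos : 1 ≤ W := by omega
  have hd2 : 2 ≤ d := by omega
  have hWP : ∀ u : U, (W : ℝ) ≤ P := fun u =>
    prime_big hd2 θ M hθ W P (e02 d) hPpos hWpos hWθ (hgood u).dense hP2
  set Bd : ℝ := 5 * (1 / 2) ^ m + m * (1 / 2) ^ (m / 2) with hBd
  have hBd0 : 0 ≤ Bd := by positivity
  have hmember : ∀ u, ∑ r : Fin d → ZMod P, ∑ ρ : Fin m → Fin d → ZMod 2,
      ((univ.filter fun c : ZMod P × (Fin m → ZMod 2) =>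
        ∀ y ∈ Afam u, hash r ρ y ≠ c).card : ℝ) ≤
      ((2 : ℝ) ^ (d + 1)) ^ m * ((P : ℝ) ^ (d + 1) * Bd) := fun u =>
    member_bound2 h θ W₀' hW₀' (Afam u) M W Q (hgood u) hW1 hQ1 hQ2 (hWP u) hP1 hP2
  have hgoodcard := goodR_card (P := P) (by omega) Y0 hY0 hY0c
  obtain ⟨r, ρ, hr, hρ⟩ := family_extract (P := P) (m := m) Afam Y0 Bd hBd0 hmember hgoodcard
  refine ⟨r, ρ, hr, fun u => le_trans (hρ u) ?_⟩
  have h2 : 8 / 7 * (Fintype.card U : ℝ) * Bd ≤ (1 / 2) ^ (m / 4) :=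
    numeric_final m hm96 _ (Nat.cast_nonneg _) hU
  exact mul_le_mul_of_nonneg_right h2 (by positivity)

end Vale.Agent.Lib.P230.Lin
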